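/-
helper10 — S0112 (row 84), assembly steps I.4–I.6 of `notes/s0112/PROOF.md` (helper72's proof),
an independent (insurance) track written against helper72's interface
`Crest.Agent.Helper72.S0112.{Pkg, Gen, KernelProp}` (file `Helper72/S0112/Pkg.lean`).

* `moments` : step I.4 — the phase-averaged operators `v θ = N^{-1/2} Σ_i ph (θ i) • σ_{τ i}(a)`:
  membership in `M`, spectral support of `v θ ξ`, second moment identity and the fourth moment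
  bound in terms of the three grid averages;
* `back`    : steps I.4–I.6 — from `a`, `w`, a grid `τ` and the four grid bounds to the final
  operator `v ∈ M` with `‖v‖ ≤ C`, `η ≤ ‖T (v ξ)‖`, `v ξ` supported in `[s - 4δ, s + 4δ]`;
  the constants `C = C₀ √R / 2`, `η = √(c / 8)`, `R = 2 (‖T‖² + 1) B / c`,
  `B = 9 + 3 (4 e^{s+2} + 1)` depend only on `T`, `s`, `c`.
-/
import Mathlib
import Crest.Prelude.Def_ModularData
import Crest.Agent.Helper72.S0112.Pkg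

set_option autoImplicit false

open MeasureTheory Filter Topology
open scoped InnerProductSpace ComplexConjugate

namespace Crest.Agent.Helper10.S0112

open Crest.OpAlg Crest.Agent.Helper72.S0112

variable {H : Type*} [NormedAddCommGroup H] [InnerProductSpace ℂ H] [CompleteSpace H]

omit [CompleteSpace H] in
lemma mul_app (A B : H →L[ℂ] H) (x : H) : (A * B) x = A (B x) := rfl

omit [CompleteSpace H] in
lemma smul_app (z : ℂ) (A : H →L[ℂ] H) (x : H) : (z • A) x = z • A x := rfl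

omit [CompleteSpace H] in
lemma sum_app {ι : Type*} (s : Finset ι) (A : ι → H →L[ℂ] H) (x : H) :
    (∑ i ∈ s, A i) x = ∑ i ∈ s, A i x := by
  simp

/-! ### The modular flow on the vacuum -/

section Flow

variable (S : ModularDatum H) (hvac : ∀ t : ℝ, S.D.wave t S.vac = S.vac)
include hvac

lemma flow_vac (t : ℝ) (a : H →L[ℂ] H) : S.flow t a S.vac = S.D.wave t (a S.vac) := by
  show (S.D.wave t * a * S.D.wave (-t)) S.vac = _
  rw [mul_app, mul_app, hvac]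

omit hvac in
lemma star_flow (t : ℝ) (a : H →L[ℂ] H) : star (S.flow t a) = S.flow t (star a) := by
  show star (S.D.wave t * a * S.D.wave (-t)) = S.D.wave t * star a * S.D.wave (-t)
  rw [star_mul, star_mul, Calc.star_wave, Calc.star_wave, neg_neg, mul_assoc]

lemma flow_star_mul_vac (t : ℝ) (a : H →L[ℂ] H) :
    (star (S.flow t a) * S.flow t a) S.vac = S.D.wave t (star a (a S.vac)) := by
  rw [star_flow S, mul_app, flow_vac S hvac]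
  show (S.D.wave t * star a * S.D.wave (-t)) _ = _
  rw [mul_app, mul_app, Calc.wave_neg_wave]

lemma flow_mul_star_vac (t : ℝ) (a : H →L[ℂ] H) :
    (S.flow t a * star (S.flow t a)) S.vac = S.D.wave t (a (star a S.vac)) := by
  rw [star_flow S, mul_app, flow_vac S hvac]
  show (S.D.wave t * a * S.D.wave (-t)) _ = _
  rw [mul_app, mul_app, Calc.wave_neg_wave]

end Flow

/-! ### Step I.4: the phase-averaged operators and their moments -/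

theorem moments (S : ModularDatum H) (hvac : ∀ t : ℝ, S.D.wave t S.vac = S.vac)
    (hGen : Gen H) (T : H →L[ℂ] H)
    (a : H →L[ℂ] H) (ha : a ∈ S.M) (w : H) (N : ℕ) (hN : 0 < N) (τ : Fin N → ℝ)
    (hkms : ∀ (t : ℝ) (r : H →L[ℂ] H), r ∈ S.M →
      ⟪S.flow t a S.vac, r (S.flow t a S.vac)⟫_ℂ = ⟪S.D.wave t w, r S.vac⟫_ℂ) :
    ∃ (v : (Fin N → Fin 4) → H →L[ℂ] H),
      (∀ θ, v θ ∈ S.M) ∧
      (∀ θ, ∀ K : Set ℝ, S.D.SupportedIn K (a S.vac) → S.D.SupportedIn K (v θ S.vac)) ∧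
      (∑ θ : Fin N → Fin 4, ‖T (v θ S.vac)‖ ^ 2 =
        (4 : ℝ) ^ N * ((N : ℝ)⁻¹ * ∑ i, ‖T (S.D.wave (τ i) (a S.vac))‖ ^ 2)) ∧
      (∑ θ : Fin N → Fin 4, ‖(star (v θ) * v θ) S.vac‖ ^ 2 ≤
        (4 : ℝ) ^ N *
          (‖((N : ℝ)⁻¹ : ℝ) • ∑ i, S.D.wave (τ i) (star a (a S.vac))‖ ^ 2 +
            ‖((N : ℝ)⁻¹ : ℝ) • ∑ i, S.D.wave (τ i) w‖ *
              ‖((N : ℝ)⁻¹ : ℝ) • ∑ i, S.D.wave (τ i) (a (star a S.vac))‖)) := by
  classical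
  set x : Fin N → H →L[ℂ] H := fun i => S.flow (τ i) a with hx
  have hxM : ∀ i, x i ∈ S.M := fun i => S.flow_mem (τ i) a ha
  have hxξ : ∀ i, x i S.vac = S.D.wave (τ i) (a S.vac) := fun i => flow_vac S hvac (τ i) a
  have hG1 := hGen.moment2 N x T S.vac
  have hG2 := hGen.moment4 N x S.vac
  set V : (Fin N → Fin 4) → H →L[ℂ] H := fun θ => ∑ i, ph (θ i) • x i with hV
  have hNpos : (0 : ℝ) < N := by exact_mod_cast hN
  set ν : ℝ := (Real.sqrt N)⁻¹ with hν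
  have hν0 : 0 ≤ ν := by positivity
  have hν2 : ν ^ 2 = (N : ℝ)⁻¹ := by
    rw [hν, inv_pow, Real.sq_sqrt hNpos.le]
  have hsmulM : ∀ (z : ℂ) (b : H →L[ℂ] H), b ∈ S.M → z • b ∈ S.M := by
    intro z b hb
    have : z • b ∈ S.M.toStarSubalgebra :=
      S.M.toStarSubalgebra.smul_mem (VonNeumannAlgebra.mem_carrier.mpr hb) _
    exact VonNeumannAlgebra.mem_carrier.mp this
  have hVM : ∀ θ, V θ ∈ S.M := fun θ => sum_mem (fun i _ => hsmulM _ _ (hxM i))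
  refine ⟨fun θ => (ν : ℂ) • V θ, fun θ => hsmulM _ _ (hVM θ), ?_, ?_, ?_⟩
  · -- support
    intro θ K hK
    have h1 : ((ν : ℂ) • V θ) S.vac = (ν : ℂ) • ∑ i, ph (θ i) • S.D.wave (τ i) (a S.vac) := by
      rw [smul_app, hV]
      simp only [sum_app, smul_app, hxξ]
    rw [h1]
    exact Calc.supportedIn_smul _ _ (Calc.supportedIn_sum _ _ _
      (fun i _ => Calc.supportedIn_smul _ _ (Calc.supportedIn_wave _ _ hK)))
  · -- second moment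
    have h1 : ∀ θ, ‖T (((ν : ℂ) • V θ) S.vac)‖ ^ 2 = (N : ℝ)⁻¹ * ‖T (V θ S.vac)‖ ^ 2 := by
      intro θ
      rw [smul_app, map_smul, norm_smul, Complex.norm_real,
        Real.norm_eq_abs, abs_of_nonneg hν0, mul_pow, hν2]
    rw [Finset.sum_congr rfl (fun θ _ => h1 θ), ← Finset.mul_sum, hG1]
    simp only [hxξ]
    ring
  · -- fourth moment
    have h1 : ∀ θ, ‖(star ((ν : ℂ) • V θ) * ((ν : ℂ) • V θ)) S.vac‖ ^ 2 =
        ((N : ℝ)⁻¹) ^ 2 * ‖star (V θ) (V θ S.vac)‖ ^ 2 := by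
      intro θ
      have e : (star ((ν : ℂ) • V θ) * ((ν : ℂ) • V θ)) S.vac =
          ((ν ^ 2 : ℝ) : ℂ) • star (V θ) (V θ S.vac) := by
        rw [star_smul, mul_app, smul_app, smul_app,
          map_smul, smul_smul]
        congr 1
        simp [sq]
      rw [e, norm_smul, Complex.norm_real, Real.norm_eq_abs, abs_of_nonneg (by positivity),
        mul_pow, hν2]
    rw [Finset.sum_congr rfl (fun θ _ => h1 θ), ← Finset.mul_sum]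
    have hrM : (∑ i, x i * star (x i)) ∈ S.M :=
      sum_mem (fun i _ => mul_mem (hxM i) (star_mem (hxM i)))
    have hP : (∑ i, star (x i) * x i) S.vac = ∑ i, S.D.wave (τ i) (star a (a S.vac)) := by
      rw [sum_app]
      exact Finset.sum_congr rfl (fun i _ => flow_star_mul_vac S hvac (τ i) a)
    have hr : (∑ i, x i * star (x i)) S.vac = ∑ i, S.D.wave (τ i) (a (star a S.vac)) := by
      rw [sum_app]
      exact Finset.sum_congr rfl (fun i _ => flow_mul_star_vac S hvac (τ i) a)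
    have hQ : ∑ j, (⟪x j S.vac, (∑ i, x i * star (x i)) (x j S.vac)⟫_ℂ).re =
        (⟪∑ j, S.D.wave (τ j) w, ∑ i, S.D.wave (τ i) (a (star a S.vac))⟫_ℂ).re := by
      rw [sum_inner, Complex.re_sum]
      refine Finset.sum_congr rfl (fun j _ => ?_)
      rw [hkms (τ j) _ hrM, hr]
    have hQle : (⟪∑ j, S.D.wave (τ j) w, ∑ i, S.D.wave (τ i) (a (star a S.vac))⟫_ℂ).re ≤
        ‖∑ j, S.D.wave (τ j) w‖ * ‖∑ i, S.D.wave (τ i) (a (star a S.vac))‖ :=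
      (le_abs_self _).trans ((Complex.abs_re_le_norm _).trans (norm_inner_le_norm _ _))
    have hns : ∀ y : H, ‖((N : ℝ)⁻¹ : ℝ) • y‖ = (N : ℝ)⁻¹ * ‖y‖ := by
      intro y
      rw [norm_smul, Real.norm_eq_abs, abs_of_pos (inv_pos.mpr hNpos)]
    rw [hns, hns, hns]
    have hinv : (0 : ℝ) ≤ (N : ℝ)⁻¹ := (inv_pos.mpr hNpos).le
    have hcard : (0 : ℝ) ≤ (4 : ℝ) ^ N := by positivity
    calc ((N : ℝ)⁻¹) ^ 2 * ∑ θ, ‖star (V θ) (V θ S.vac)‖ ^ 2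
        ≤ ((N : ℝ)⁻¹) ^ 2 * ((4 : ℝ) ^ N * (‖(∑ i, star (x i) * x i) S.vac‖ ^ 2 +
          ∑ j, (⟪x j S.vac, (∑ i, x i * star (x i)) (x j S.vac)⟫_ℂ).re)) :=
          mul_le_mul_of_nonneg_left hG2 (by positivity)
      _ = (4 : ℝ) ^ N * (((N : ℝ)⁻¹ * ‖∑ i, S.D.wave (τ i) (star a (a S.vac))‖) ^ 2 +
          ((N : ℝ)⁻¹) ^ 2 *
            (⟪∑ j, S.D.wave (τ j) w, ∑ i, S.D.wave (τ i) (a (star a S.vac))⟫_ℂ).re) := by
          rw [hQ, hP]; ring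
      _ ≤ (4 : ℝ) ^ N * (((N : ℝ)⁻¹ * ‖∑ i, S.D.wave (τ i) (star a (a S.vac))‖) ^ 2 +
          (N : ℝ)⁻¹ * ‖∑ i, S.D.wave (τ i) w‖ *
            ((N : ℝ)⁻¹ * ‖∑ i, S.D.wave (τ i) (a (star a S.vac))‖)) := by
          refine mul_le_mul_of_nonneg_left ?_ hcard
          have := mul_le_mul_of_nonneg_left hQle (sq_nonneg ((N : ℝ)⁻¹))
          nlinarith [this]

/-! ### Steps I.5–I.6: truncation, smoothing, selection -/

omit [CompleteSpace H] in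
lemma sq_norm_le_two (T : H →L[ℂ] H) (x y : H) :
    ‖T x‖ ^ 2 ≤ 2 * ‖T y‖ ^ 2 + 2 * ‖T‖ ^ 2 * ‖y - x‖ ^ 2 := by
  have h1 : ‖T x‖ ≤ ‖T y‖ + ‖T‖ * ‖y - x‖ := by
    have : T x = T y - T (y - x) := by rw [map_sub]; abel
    rw [this]
    exact (norm_sub_le _ _).trans (add_le_add le_rfl (T.le_opNorm _))
  have h2 : 0 ≤ ‖T x‖ := norm_nonneg _
  nlinarith [sq_nonneg (‖T y‖ - ‖T‖ * ‖y - x‖), mul_nonneg (norm_nonneg T) (norm_nonneg (y - x)),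
    norm_nonneg (T y)]

theorem back (S : ModularDatum H) (hP : Pkg S) (hGen : Gen H) {C₀ : ℝ} (hC₀ : 0 ≤ C₀)
    (hker : KernelProp C₀) (T : H →L[ℂ] H) (s c : ℝ) (hc : 0 < c) :
    ∃ C η : ℝ, 0 < η ∧ ∀ (δ : ℝ), 0 < δ →
      ∀ (a : H →L[ℂ] H), a ∈ S.M → ∀ (w : H) (N : ℕ), 0 < N → ∀ (τ : Fin N → ℝ),
      S.D.SupportedIn (Set.Icc (s - 2 * δ) (s + 2 * δ)) (a S.vac) →
      ‖a S.vac‖ ≤ 3 / 2 →
      ‖star a S.vac‖ ≤ Real.exp ((s + 2) / 2) * ‖a S.vac‖ →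
      (∀ (t : ℝ) (r : H →L[ℂ] H), r ∈ S.M →
        ⟪S.flow t a S.vac, r (S.flow t a S.vac)⟫_ℂ = ⟪S.D.wave t w, r S.vac⟫_ℂ) →
      ‖((N : ℝ)⁻¹ : ℝ) • ∑ i, S.D.wave (τ i) (star a (a S.vac))‖ ≤ ‖a S.vac‖ ^ 2 + 1 / 2 →
      ‖((N : ℝ)⁻¹ : ℝ) • ∑ i, S.D.wave (τ i) (a (star a S.vac))‖ ≤
        ‖star a S.vac‖ ^ 2 + 1 / 2 →
      ‖((N : ℝ)⁻¹ : ℝ) • ∑ i, S.D.wave (τ i) w‖ ≤ ‖a S.vac‖ ^ 2 + 1 / 2 →
      c / 2 ≤ (N : ℝ)⁻¹ * ∑ i, ‖T (S.D.wave (τ i) (a S.vac))‖ ^ 2 →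
      ∃ v : H →L[ℂ] H, v ∈ S.M ∧ ‖v‖ ≤ C ∧ η ≤ ‖T (v S.vac)‖ ∧
        S.D.SupportedIn (Set.Icc (s - 4 * δ) (s + 4 * δ)) (v S.vac) := by
  set E : ℝ := Real.exp (s + 2) with hE
  have hEpos : 0 < E := Real.exp_pos _
  set B : ℝ := 9 + 3 * (4 * E + 1) with hB
  have hBpos : 0 < B := by positivity
  set R : ℝ := 2 * (‖T‖ ^ 2 + 1) * B / c with hR
  have hRpos : 0 < R := by positivity
  have hcR : c * R = 2 * (‖T‖ ^ 2 + 1) * B := by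
    rw [hR]; field_simp
  refine ⟨C₀ * (Real.sqrt R / 2), Real.sqrt (c / 8), Real.sqrt_pos.mpr (by positivity), ?_⟩
  intro δ hδ a ha w N hN τ hsupp hnorm hstar hkms h1 h2 h3 h4
  obtain ⟨v, hvM, hvsupp, hm2, hm4⟩ := moments S hP.wave_vac hGen T a ha w N hN τ hkms
  -- the fourth moment is at most `B`
  have hA0 : 0 ≤ ‖a S.vac‖ := norm_nonneg _
  have hAs0 : 0 ≤ ‖star a S.vac‖ := norm_nonneg _
  have hEsq : Real.exp ((s + 2) / 2) ^ 2 = E := by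
    rw [hE, ← Real.exp_nat_mul]
    congr 1
    push_cast
    ring
  have hAs2 : ‖star a S.vac‖ ^ 2 ≤ E * ‖a S.vac‖ ^ 2 := by
    have := pow_le_pow_left₀ hAs0 hstar 2
    rw [mul_pow, hEsq] at this
    exact this
  have hA2 : ‖a S.vac‖ ^ 2 ≤ 9 / 4 := by nlinarith
  have hm4B : ‖((N : ℝ)⁻¹ : ℝ) • ∑ i, S.D.wave (τ i) (star a (a S.vac))‖ ^ 2 +
            ‖((N : ℝ)⁻¹ : ℝ) • ∑ i, S.D.wave (τ i) w‖ *
              ‖((N : ℝ)⁻¹ : ℝ) • ∑ i, S.D.wave (τ i) (a (star a S.vac))‖ ≤ B := by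
    set P := ‖((N : ℝ)⁻¹ : ℝ) • ∑ i, S.D.wave (τ i) (star a (a S.vac))‖
    set Q := ‖((N : ℝ)⁻¹ : ℝ) • ∑ i, S.D.wave (τ i) w‖
    set Q' := ‖((N : ℝ)⁻¹ : ℝ) • ∑ i, S.D.wave (τ i) (a (star a S.vac))‖
    have hP0 : 0 ≤ P := norm_nonneg _
    have hQ0 : 0 ≤ Q := norm_nonneg _
    have hQ'0 : 0 ≤ Q' := norm_nonneg _
    have hP : P ≤ 11 / 4 := by linarith
    have hQ : Q ≤ 11 / 4 := by linarith
    have hQ' : Q' ≤ 9 / 4 * E + 1 / 2 := by nlinarith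
    have hPP : P ^ 2 ≤ (11 / 4) ^ 2 := pow_le_pow_left₀ hP0 hP 2
    have hQQ : Q * Q' ≤ 11 / 4 * (9 / 4 * E + 1 / 2) := mul_le_mul hQ hQ' hQ'0 (by norm_num)
    rw [hB]
    nlinarith
  have hcard : (0 : ℝ) < (4 : ℝ) ^ N := by positivity
  have hsum4 : ∑ θ : Fin N → Fin 4, ‖(star (v θ) * v θ) S.vac‖ ^ 2 ≤ (4 : ℝ) ^ N * B :=
    hm4.trans (mul_le_mul_of_nonneg_left hm4B hcard.le)
  have hsum2 : (4 : ℝ) ^ N * (c / 2) ≤ ∑ θ : Fin N → Fin 4, ‖T (v θ S.vac)‖ ^ 2 := by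
    rw [hm2]
    exact mul_le_mul_of_nonneg_left h4 hcard.le
  -- truncation
  have htr := fun θ => hGen.trunc (v θ) R hRpos
  choose wt hv'norm hv'diff hv'M using htr
  have hsR : 0 < Real.sqrt R := Real.sqrt_pos.mpr hRpos
  have hv'sq : ∀ θ, ‖v θ S.vac - (v θ * wt θ) S.vac‖ ^ 2 ≤
      ‖(star (v θ) * v θ) S.vac‖ ^ 2 / (4 * R) := by
    intro θ
    have h6 := pow_le_pow_left₀ (norm_nonneg _) (hv'diff θ S.vac) 2
    refine h6.trans (le_of_eq ?_)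
    rw [div_pow, mul_pow, Real.sq_sqrt hRpos.le]
    norm_num
  -- smoothing
  obtain ⟨f₃, hf₃i, hf₃n, F₃, hF₃, hF₃le, hF₃1, hF₃0⟩ := hker s (2 * δ) (by positivity)
  have hsm := fun θ => hP.smooth f₃ hf₃i F₃ hF₃ _ _ hF₃0 (v θ * wt θ) (hv'M θ S.M (hvM θ))
  choose v'' hv''M hv''norm hv''ξ _hv''star using hsm
  have happly1 : ∀ y : H, ‖S.D.apply F₃ y‖ ≤ ‖y‖ :=
    fun y => Calc.norm_apply_apply_le_of_le_one S.D F₃ hF₃le y
  have hF₃v : ∀ θ, S.D.apply F₃ (v θ S.vac) = v θ S.vac := fun θ =>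
    Calc.apply_eq_self_of_supportedIn S.D F₃ hF₃1 (hvsupp θ _ hsupp)
  have hdiff : ∀ θ, ‖v'' θ S.vac - v θ S.vac‖ ^ 2 ≤
      ‖(star (v θ) * v θ) S.vac‖ ^ 2 / (4 * R) := by
    intro θ
    have e : v'' θ S.vac - v θ S.vac = S.D.apply F₃ ((v θ * wt θ) S.vac - v θ S.vac) := by
      rw [map_sub, hF₃v, hv''ξ]
    rw [e]
    have h5 : ‖S.D.apply F₃ ((v θ * wt θ) S.vac - v θ S.vac)‖ ≤
        ‖v θ S.vac - (v θ * wt θ) S.vac‖ := by
      rw [norm_sub_rev (v θ S.vac)]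
      exact happly1 _
    exact (pow_le_pow_left₀ (norm_nonneg _) h5 2).trans (hv'sq θ)
  have hI6 : ∀ θ, ‖T (v θ S.vac)‖ ^ 2 ≤ 2 * ‖T (v'' θ S.vac)‖ ^ 2 +
      2 * ‖T‖ ^ 2 * (‖(star (v θ) * v θ) S.vac‖ ^ 2 / (4 * R)) := by
    intro θ
    refine (sq_norm_le_two T (v θ S.vac) (v'' θ S.vac)).trans ?_
    have := mul_le_mul_of_nonneg_left (hdiff θ) (by positivity : (0 : ℝ) ≤ 2 * ‖T‖ ^ 2)
    linarith
  -- selection
  have hex : ∃ θ, c / 8 ≤ ‖T (v'' θ S.vac)‖ ^ 2 := by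
    by_contra hcon
    simp only [not_exists, not_le] at hcon
    have hlt : ∑ θ : Fin N → Fin 4, ‖T (v'' θ S.vac)‖ ^ 2 < ∑ _θ : Fin N → Fin 4, c / 8 :=
      Finset.sum_lt_sum_of_nonempty Finset.univ_nonempty (fun θ _ => hcon θ)
    have hcardeq : ((Fintype.card (Fin N → Fin 4) : ℕ) : ℝ) = (4 : ℝ) ^ N := by
      simp
    rw [Finset.sum_const, Finset.card_univ, nsmul_eq_mul, hcardeq] at hlt
    have hs : ∑ θ : Fin N → Fin 4, ‖T (v θ S.vac)‖ ^ 2 ≤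
        2 * ∑ θ : Fin N → Fin 4, ‖T (v'' θ S.vac)‖ ^ 2 +
        2 * ‖T‖ ^ 2 / (4 * R) * ∑ θ : Fin N → Fin 4, ‖(star (v θ) * v θ) S.vac‖ ^ 2 := by
      rw [Finset.mul_sum, Finset.mul_sum, ← Finset.sum_add_distrib]
      refine Finset.sum_le_sum (fun θ _ => (hI6 θ).trans (le_of_eq ?_))
      ring
    have hk : 2 * ‖T‖ ^ 2 / (4 * R) * B ≤ c / 4 := by
      rw [div_mul_eq_mul_div, div_le_iff₀ (by positivity)]
      nlinarith [hcR, hBpos]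
    have h6 : 2 * ‖T‖ ^ 2 / (4 * R) * ∑ θ : Fin N → Fin 4, ‖(star (v θ) * v θ) S.vac‖ ^ 2 ≤
        (4 : ℝ) ^ N * (c / 4) := by
      calc 2 * ‖T‖ ^ 2 / (4 * R) * ∑ θ : Fin N → Fin 4, ‖(star (v θ) * v θ) S.vac‖ ^ 2
          ≤ 2 * ‖T‖ ^ 2 / (4 * R) * ((4 : ℝ) ^ N * B) :=
            mul_le_mul_of_nonneg_left hsum4 (by positivity)
        _ = (4 : ℝ) ^ N * (2 * ‖T‖ ^ 2 / (4 * R) * B) := by ring
        _ ≤ (4 : ℝ) ^ N * (c / 4) := mul_le_mul_of_nonneg_left hk hcard.le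
    linarith
  obtain ⟨θ, hθ⟩ := hex
  refine ⟨v'' θ, hv''M θ, ?_, ?_, ?_⟩
  · calc ‖v'' θ‖ ≤ (∫ t, ‖f₃ t‖) * ‖v θ * wt θ‖ := hv''norm θ
      _ ≤ C₀ * (Real.sqrt R / 2) := mul_le_mul hf₃n (hv'norm θ) (norm_nonneg _) hC₀
  · have : Real.sqrt (c / 8) ≤ Real.sqrt (‖T (v'' θ S.vac)‖ ^ 2) := Real.sqrt_le_sqrt hθ
    rwa [Real.sqrt_sq (norm_nonneg _)] at this
  · rw [hv''ξ]
    have e : (4 : ℝ) * δ = 2 * (2 * δ) := by ring
    rw [e]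
    exact Calc.supportedIn_apply_of_vanish S.D F₃ hF₃0 _

end Crest.Agent.Helper10.S0112
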