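/-
helper10 — S0112 (row 84), assembly steps I.2–I.3 and the per-`n` core, an independent
(insurance) track against helper72's interface `Crest.Agent.Helper72.S0112.{Pkg, Gen, KernelProp}`.

* `front`         : steps I.2–I.3 — from a unit vector `h` in the band `[s - δ, s + δ]` with
  `c ≤ ultraMean ω (t ↦ ‖T U_t h‖²)` construct `a ∈ M`, `w`, a window `k`, a grid size `N` with the
  four grid bounds consumed by `back`;
* `per_n_core`    : `front` + `back`;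
* `result_of_pkg` : the frozen conclusion of S0112 from `Pkg S`, `Gen H`, `KernelProp C₀`.
-/
import Mathlib
import Crest.Prelude.Def_ModularData
import Crest.Agent.Helper72.S0112.Pkg
import Crest.Agent.Helper10.S0112.Back

set_option autoImplicit false

open MeasureTheory Filter Topology
open scoped InnerProductSpace ComplexConjugate

namespace Crest.Agent.Helper10.S0112

open Crest.OpAlg Crest.Agent.Helper72.S0112

variable {H : Type*} [NormedAddCommGroup H] [InnerProductSpace ℂ H] [CompleteSpace H]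

omit [InnerProductSpace ℂ H] [CompleteSpace H] in
lemma norm_le_of_two_dist {x y L : H} {r : ℝ} (h1 : dist x y < 1 / 4) (h2 : dist y L < 1 / 4)
    (hL : ‖L‖ = r) : ‖x‖ ≤ r + 1 / 2 := by
  rw [dist_eq_norm] at h1 h2
  have h3 : ‖x‖ ≤ ‖x - y‖ + ‖y - L‖ + ‖L‖ := by
    have e : x = (x - y) + (y - L) + L := by abel
    calc ‖x‖ = ‖(x - y) + (y - L) + L‖ := by rw [← e]
      _ ≤ ‖(x - y) + (y - L)‖ + ‖L‖ := norm_add_le _ _
      _ ≤ ‖x - y‖ + ‖y - L‖ + ‖L‖ := by gcongr; exact norm_add_le _ _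
  linarith

omit [CompleteSpace H] in
lemma sq_norm_le_add (T : H →L[ℂ] H) (x y : H) :
    ‖T x‖ ^ 2 ≤ ‖T y‖ ^ 2 + ‖T‖ ^ 2 * (‖x‖ + ‖y‖) * ‖x - y‖ := by
  have h1 : ‖T x‖ - ‖T y‖ ≤ ‖T‖ * ‖x - y‖ := by
    have : ‖T x‖ - ‖T y‖ ≤ ‖T x - T y‖ := norm_sub_norm_le _ _
    rw [← map_sub] at this
    exact this.trans (T.le_opNorm _)
  have h2 : ‖T x‖ ≤ ‖T‖ * ‖x‖ := T.le_opNorm _
  have h3 : ‖T y‖ ≤ ‖T‖ * ‖y‖ := T.le_opNorm _
  have h4 : 0 ≤ ‖T x‖ := norm_nonneg _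
  have h5 : 0 ≤ ‖T y‖ := norm_nonneg _
  have h6 : 0 ≤ ‖T‖ * ‖x - y‖ := by positivity
  have h7 : ‖T x‖ ^ 2 - ‖T y‖ ^ 2 = (‖T x‖ - ‖T y‖) * (‖T x‖ + ‖T y‖) := by ring
  have h8 : (‖T x‖ - ‖T y‖) * (‖T x‖ + ‖T y‖) ≤ (‖T‖ * ‖x - y‖) * (‖T‖ * ‖x‖ + ‖T‖ * ‖y‖) := by
    by_cases hneg : ‖T x‖ - ‖T y‖ ≤ 0
    · have : (‖T x‖ - ‖T y‖) * (‖T x‖ + ‖T y‖) ≤ 0 :=
        mul_nonpos_of_nonpos_of_nonneg hneg (by positivity)
      have h9 : 0 ≤ (‖T‖ * ‖x - y‖) * (‖T‖ * ‖x‖ + ‖T‖ * ‖y‖) := by positivity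
      linarith
    · exact mul_le_mul h1 (add_le_add h2 h3) (by positivity) h6
  have h9 : (‖T‖ * ‖x - y‖) * (‖T‖ * ‖x‖ + ‖T‖ * ‖y‖) = ‖T‖ ^ 2 * (‖x‖ + ‖y‖) * ‖x - y‖ := by
    ring
  linarith

theorem front (S : ModularDatum H) (hP : Pkg S) (hGen : Gen H) {C₀ : ℝ}
    (hker : KernelProp C₀) (ω : Ultrafilter ℕ) (hω : (ω : Filter ℕ) ≤ atTop)
    (T : H →L[ℂ] H) (s c : ℝ) (hc : 0 < c)
    (δ : ℝ) (hδ : 0 < δ) (hδ1 : δ ≤ 1) (h : H) (hh : ‖h‖ = 1)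
    (hband : S.D.SupportedIn (Set.Icc (s - δ) (s + δ)) h)
    (hpos : c ≤ ultraMean ω (fun t : ℝ => ‖T (S.D.wave t h)‖ ^ 2)) :
    ∃ (a : H →L[ℂ] H) (w : H) (N : ℕ) (τ : Fin N → ℝ), a ∈ S.M ∧ 0 < N ∧
      S.D.SupportedIn (Set.Icc (s - 2 * δ) (s + 2 * δ)) (a S.vac) ∧
      ‖a S.vac‖ ≤ 3 / 2 ∧
      ‖star a S.vac‖ ≤ Real.exp ((s + 2) / 2) * ‖a S.vac‖ ∧
      (∀ (t : ℝ) (r : H →L[ℂ] H), r ∈ S.M →
        ⟪S.flow t a S.vac, r (S.flow t a S.vac)⟫_ℂ = ⟪S.D.wave t w, r S.vac⟫_ℂ) ∧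
      ‖((N : ℝ)⁻¹ : ℝ) • ∑ i, S.D.wave (τ i) (star a (a S.vac))‖ ≤ ‖a S.vac‖ ^ 2 + 1 / 2 ∧
      ‖((N : ℝ)⁻¹ : ℝ) • ∑ i, S.D.wave (τ i) (a (star a S.vac))‖ ≤
        ‖star a S.vac‖ ^ 2 + 1 / 2 ∧
      ‖((N : ℝ)⁻¹ : ℝ) • ∑ i, S.D.wave (τ i) w‖ ≤ ‖a S.vac‖ ^ 2 + 1 / 2 ∧
      c / 2 ≤ (N : ℝ)⁻¹ * ∑ i, ‖T (S.D.wave (τ i) (a S.vac))‖ ^ 2 := by
  -- I.2: the approximant `a`
  set ε₀ : ℝ := min (1 / 2) (c / (24 * (‖T‖ ^ 2 + 1))) with hε₀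
  have hε₀pos : 0 < ε₀ := lt_min (by norm_num) (by positivity)
  have hε₀half : ε₀ ≤ 1 / 2 := min_le_left _ _
  have hε₀c : ε₀ ≤ c / (24 * (‖T‖ ^ 2 + 1)) := min_le_right _ _
  obtain ⟨y, ⟨b, rfl⟩, hyb⟩ := S.cyclic.exists_dist_lt h hε₀pos
  obtain ⟨f₁, hf₁i, hf₁n, F₁, hF₁, hF₁le, hF₁1, hF₁0⟩ := hker s δ hδ
  obtain ⟨a, haM, hanorm, haξ, hastar⟩ :=
    hP.smooth f₁ hf₁i F₁ hF₁ _ _ hF₁0 (b : H →L[ℂ] H) b.2
  have hasupp : S.D.SupportedIn (Set.Icc (s - 2 * δ) (s + 2 * δ)) (a S.vac) := by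
    rw [haξ]
    exact Calc.supportedIn_apply_of_vanish S.D F₁ hF₁0 _
  have hF₁h : S.D.apply F₁ h = h := Calc.apply_eq_self_of_supportedIn S.D F₁ hF₁1 hband
  have hah : ‖a S.vac - h‖ ≤ ε₀ := by
    have e : a S.vac - h = S.D.apply F₁ ((b : H →L[ℂ] H) S.vac - h) := by
      rw [map_sub, hF₁h, haξ]
    rw [e]
    refine (Calc.norm_apply_apply_le_of_le_one S.D F₁ hF₁le _).trans ?_
    rw [← dist_eq_norm, dist_comm]
    exact hyb.le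
  have hanorm32 : ‖a S.vac‖ ≤ 3 / 2 := by
    have h1 : ‖a S.vac‖ ≤ ‖a S.vac - h‖ + ‖h‖ := by
      have := norm_add_le (a S.vac - h) h
      rwa [sub_add_cancel] at this
    linarith
  have hstar : ‖star a S.vac‖ ≤ Real.exp ((s + 2) / 2) * ‖a S.vac‖ := by
    have h1 := hP.norm_star a haM _ _ hasupp
    exact h1.trans (mul_le_mul_of_nonneg_right (Real.exp_le_exp.mpr (by linarith))
      (norm_nonneg _))
  obtain ⟨w, hw, hkms⟩ := hP.kms a haM _ _ hastar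
  refine ⟨a, w, ?_⟩
  -- the three limits
  have hL1 : ⟪S.vac, star a (a S.vac)⟫_ℂ = ((‖a S.vac‖ ^ 2 : ℝ) : ℂ) := by
    rw [ContinuousLinearMap.star_eq_adjoint, ContinuousLinearMap.adjoint_inner_right,
      inner_self_eq_norm_sq_to_K]
    push_cast
    rfl
  have hL2 : ⟪S.vac, a (star a S.vac)⟫_ℂ = ((‖star a S.vac‖ ^ 2 : ℝ) : ℂ) := by
    rw [← ContinuousLinearMap.adjoint_inner_left, ← ContinuousLinearMap.star_eq_adjoint,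
      inner_self_eq_norm_sq_to_K]
    push_cast
    rfl
  have hnormL : ∀ r : ℝ, 0 ≤ r → ‖((r : ℝ) : ℂ) • S.vac‖ = r := by
    intro r hr
    rw [norm_smul, Complex.norm_real, Real.norm_eq_abs, abs_of_nonneg hr, S.norm_vac, mul_one]
  have hE1 := hP.ergodic (star a (a S.vac))
  have hE2 := hP.ergodic (a (star a S.vac))
  have hE3 := hP.ergodic w
  rw [hL1] at hE1
  rw [hL2] at hE2
  rw [hw] at hE3
  obtain ⟨K₁, hK₁⟩ := Metric.tendsto_atTop.mp hE1 (1 / 4) (by norm_num)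
  obtain ⟨K₂, hK₂⟩ := Metric.tendsto_atTop.mp hE2 (1 / 4) (by norm_num)
  obtain ⟨K₃, hK₃⟩ := Metric.tendsto_atTop.mp hE3 (1 / 4) (by norm_num)
  -- I.1: the window
  set g : ℝ → ℝ := fun t => ‖T (S.D.wave t h)‖ ^ 2 with hg
  have hgcont : Continuous g := ((T.continuous.comp (hP.cont h)).norm).pow 2
  have hg0 : ∀ t, 0 ≤ g t := fun t => by positivity
  have hgB : ∀ t, g t ≤ ‖T‖ ^ 2 := by
    intro t
    have h1 : ‖T (S.D.wave t h)‖ ≤ ‖T‖ := by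
      have := T.le_opNorm (S.D.wave t h)
      rwa [Calc.norm_wave, hh, mul_one] at this
    exact pow_le_pow_left₀ (norm_nonneg _) h1 2
  have hwin := hGen.ultra ω g hgcont (‖T‖ ^ 2) hg0 hgB c hc hpos
  have hlarge : ∀ᶠ k : ℕ in (ω : Filter ℕ), max (max K₁ K₂) (max K₃ 1) ≤ k :=
    hω (eventually_ge_atTop _)
  obtain ⟨k, hkwin, hkK⟩ := (hwin.and hlarge).exists
  have hkK₁ : K₁ ≤ k := le_trans (le_trans (le_max_left _ _) (le_max_left _ _)) hkK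
  have hkK₂ : K₂ ≤ k := le_trans (le_trans (le_max_right _ _) (le_max_left _ _)) hkK
  have hkK₃ : K₃ ≤ k := le_trans (le_trans (le_max_left _ _) (le_max_right _ _)) hkK
  have hk1 : 1 ≤ k := le_trans (le_trans (le_max_right _ _) (le_max_right _ _)) hkK
  have hkpos : (0 : ℝ) < (k : ℝ) := by exact_mod_cast hk1
  -- from `h` to `a ξ`
  set ga : ℝ → ℝ := fun t => ‖T (S.D.wave t (a S.vac))‖ ^ 2 with hga
  have hgacont : Continuous ga := ((T.continuous.comp (hP.cont (a S.vac))).norm).pow 2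
  have hgle : ∀ t, g t ≤ ga t + c / 8 := by
    intro t
    have h1 := sq_norm_le_add T (S.D.wave t h) (S.D.wave t (a S.vac))
    rw [← map_sub, Calc.norm_wave, Calc.norm_wave, Calc.norm_wave, hh] at h1
    have h2 : ‖h - a S.vac‖ ≤ ε₀ := by rw [norm_sub_rev]; exact hah
    have hT0 : 0 ≤ ‖T‖ ^ 2 := by positivity
    have h3 : ‖T‖ ^ 2 * (1 + ‖a S.vac‖) * ‖h - a S.vac‖ ≤ ‖T‖ ^ 2 * (5 / 2) * ε₀ := by
      have h31 : ‖T‖ ^ 2 * (1 + ‖a S.vac‖) ≤ ‖T‖ ^ 2 * (5 / 2) :=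
        mul_le_mul_of_nonneg_left (by linarith) hT0
      exact mul_le_mul h31 h2 (norm_nonneg _) (by positivity)
    have h4 : ‖T‖ ^ 2 * (5 / 2) * ε₀ ≤ c / 8 := by
      have h41 : ‖T‖ ^ 2 * (5 / 2) * ε₀ ≤ ‖T‖ ^ 2 * (5 / 2) * (c / (24 * (‖T‖ ^ 2 + 1))) :=
        mul_le_mul_of_nonneg_left hε₀c (by positivity)
      have h42 : ‖T‖ ^ 2 * (5 / 2) * (c / (24 * (‖T‖ ^ 2 + 1))) ≤ c / 8 := by
        rw [← mul_div_assoc, div_le_iff₀ (by positivity)]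
        nlinarith
      linarith
    show ‖T (S.D.wave t h)‖ ^ 2 ≤ ‖T (S.D.wave t (a S.vac))‖ ^ 2 + c / 8
    linarith
  have hwin_a : 5 * c / 8 < (2 * (k : ℝ))⁻¹ * ∫ t in (-(k : ℝ))..(k : ℝ), ga t := by
    have hle : (-(k : ℝ)) ≤ (k : ℝ) := by linarith
    have hint : ∫ t in (-(k : ℝ))..(k : ℝ), g t ≤
        ∫ t in (-(k : ℝ))..(k : ℝ), (ga t + c / 8) :=
      intervalIntegral.integral_mono_on hle (hgcont.intervalIntegrable _ _)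
        ((hgacont.add continuous_const).intervalIntegrable _ _) (fun t _ => hgle t)
    rw [intervalIntegral.integral_add (hgacont.intervalIntegrable _ _)
      (continuous_const.intervalIntegrable _ _), intervalIntegral.integral_const] at hint
    have h2k : (0 : ℝ) < (2 * (k : ℝ))⁻¹ := by positivity
    have h1 := mul_le_mul_of_nonneg_left hint h2k.le
    have h2 : (2 * (k : ℝ))⁻¹ * ((∫ t in (-(k : ℝ))..(k : ℝ), ga t) +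
        ((k : ℝ) - -(k : ℝ)) • (c / 8)) =
        (2 * (k : ℝ))⁻¹ * (∫ t in (-(k : ℝ))..(k : ℝ), ga t) + c / 8 := by
      rw [smul_eq_mul]
      field_simp
      ring
    linarith
  -- I.3: the grid
  have hR1 := hGen.riemannH (fun t => S.D.wave t (star a (a S.vac))) (hP.cont _) (k : ℝ) hkpos
  have hR2 := hGen.riemannH (fun t => S.D.wave t (a (star a S.vac))) (hP.cont _) (k : ℝ) hkpos
  have hR3 := hGen.riemannH (fun t => S.D.wave t w) (hP.cont _) (k : ℝ) hkpos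
  have hR4 := hGen.riemannR ga hgacont (k : ℝ) hkpos
  have hN1 := Metric.tendsto_nhds.mp hR1 (1 / 4) (by norm_num)
  have hN2 := Metric.tendsto_nhds.mp hR2 (1 / 4) (by norm_num)
  have hN3 := Metric.tendsto_nhds.mp hR3 (1 / 4) (by norm_num)
  have hN4 := (tendsto_order.1 hR4).1 (c / 2) (by linarith)
  obtain ⟨N, ⟨⟨⟨⟨hN1, hN2⟩, hN3⟩, hN4⟩, hNpos⟩⟩ :=
    ((((hN1.and hN2).and hN3).and hN4).and (eventually_gt_atTop 0)).exists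
  refine ⟨N, fun i => -(k : ℝ) + 2 * (k : ℝ) * ((i : ℕ) : ℝ) / (N : ℝ), haM, hNpos, hasupp,
    hanorm32, hstar, hkms, ?_, ?_, ?_, ?_⟩
  · rw [Fin.sum_univ_eq_sum_range
      (fun i : ℕ => S.D.wave (-(k : ℝ) + 2 * (k : ℝ) * (i : ℝ) / (N : ℝ)) (star a (a S.vac))) N]
    exact norm_le_of_two_dist hN1 (hK₁ k hkK₁) (hnormL _ (by positivity))
  · rw [Fin.sum_univ_eq_sum_range
      (fun i : ℕ => S.D.wave (-(k : ℝ) + 2 * (k : ℝ) * (i : ℝ) / (N : ℝ)) (a (star a S.vac))) N]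
    exact norm_le_of_two_dist hN2 (hK₂ k hkK₂) (hnormL _ (by positivity))
  · rw [Fin.sum_univ_eq_sum_range
      (fun i : ℕ => S.D.wave (-(k : ℝ) + 2 * (k : ℝ) * (i : ℝ) / (N : ℝ)) w) N]
    exact norm_le_of_two_dist hN3 (hK₃ k hkK₃) (hnormL _ (by positivity))
  · rw [Fin.sum_univ_eq_sum_range
      (fun i : ℕ => ‖T (S.D.wave (-(k : ℝ) + 2 * (k : ℝ) * (i : ℝ) / (N : ℝ)) (a S.vac))‖ ^ 2) N]
    exact hN4.le

/-- The per-`n` core (steps I.2–I.6): the constants `C`, `η` depend only on `T`, `s`, `c`. -/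
theorem per_n_core (S : ModularDatum H) (hP : Pkg S) (hGen : Gen H) {C₀ : ℝ} (hC₀ : 0 ≤ C₀)
    (hker : KernelProp C₀) (ω : Ultrafilter ℕ) (hω : (ω : Filter ℕ) ≤ atTop)
    (T : H →L[ℂ] H) (s c : ℝ) (hc : 0 < c) :
    ∃ C η : ℝ, 0 < η ∧ ∀ (δ : ℝ) (h : H), 0 < δ → δ ≤ 1 → ‖h‖ = 1 →
      S.D.SupportedIn (Set.Icc (s - δ) (s + δ)) h →
      c ≤ ultraMean ω (fun t : ℝ => ‖T (S.D.wave t h)‖ ^ 2) →
      ∃ v : H →L[ℂ] H, v ∈ S.M ∧ ‖v‖ ≤ C ∧ η ≤ ‖T (v S.vac)‖ ∧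
        S.D.SupportedIn (Set.Icc (s - 4 * δ) (s + 4 * δ)) (v S.vac) := by
  obtain ⟨C, η, hη, hback⟩ := back S hP hGen hC₀ hker T s c hc
  refine ⟨C, η, hη, ?_⟩
  intro δ h hδ hδ1 hh hband hpos
  obtain ⟨a, w, N, τ, haM, hN, h1, h2, h3, h4, h5, h6, h7, h8⟩ :=
    front S hP hGen hker ω hω T s c hc δ hδ hδ1 h hh hband hpos
  exact hback δ hδ a haM w N hN τ h1 h2 h3 h4 h5 h6 h7 h8

/-- The frozen conclusion of S0112 from the package interface. -/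
theorem result_of_pkg (S : ModularDatum H) (hP : Pkg S) (hGen : Gen H) {C₀ : ℝ} (hC₀ : 0 ≤ C₀)
    (hker : KernelProp C₀)
    (ω : Ultrafilter ℕ) (hω : (ω : Filter ℕ) ≤ Filter.atTop)
    (T : H →L[ℂ] H) (s : ℝ) (δ : ℕ → ℝ) (hδ : ∀ n, 0 < δ n)
    (hδ0 : Filter.Tendsto δ Filter.atTop (nhds 0))
    (h : ℕ → H) (hh : ∀ n, ‖h n‖ = 1)
    (hband : ∀ n, S.D.SupportedIn (Set.Icc (s - δ n) (s + δ n)) (h n))
    (hpos : ∃ c : ℝ, 0 < c ∧ ∃ᶠ n in Filter.atTop,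
      c ≤ Crest.OpAlg.ultraMean ω (fun t : ℝ => ‖T (S.D.wave t (h n))‖ ^ 2)) :
    ∃ (n' : ℕ → ℕ) (v : ℕ → (H →L[ℂ] H)) (C η : ℝ), StrictMono n' ∧ 0 < η ∧
      ∀ j : ℕ, v j ∈ S.M ∧ ‖v j‖ ≤ C ∧ η ≤ ‖T (v j S.vac)‖ ∧
        S.D.SupportedIn (Set.Icc (s - 4 * δ (n' j)) (s + 4 * δ (n' j))) (v j S.vac) := by
  obtain ⟨c, hc, hfreq⟩ := hpos
  obtain ⟨C, η, hη, hcore⟩ := per_n_core S hP hGen hC₀ hker ω hω T s c hc
  have hev : ∀ᶠ n in atTop, δ n ≤ 1 :=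
    hδ0.eventually (eventually_le_nhds (by norm_num : (0 : ℝ) < 1))
  have hfr : ∃ᶠ n in atTop,
      c ≤ Crest.OpAlg.ultraMean ω (fun t : ℝ => ‖T (S.D.wave t (h n))‖ ^ 2) ∧ δ n ≤ 1 :=
    hfreq.and_eventually hev
  obtain ⟨n', hn'mono, hn'⟩ := extraction_of_frequently_atTop hfr
  have hv := fun j =>
    hcore (δ (n' j)) (h (n' j)) (hδ _) (hn' j).2 (hh _) (hband _) (hn' j).1
  choose v hv using hv
  exact ⟨n', v, C, η, hn'mono, hη, hv⟩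

end Crest.Agent.Helper10.S0112
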